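import Vale.Agent.H11.P34.Defs

/-! P034 row A1: basic facts on `JJ` and `Lam`. -/

namespace Vale.Agent.H11.P34

open Finset Vale.Agent.H2.P034

variable {α : Type*} [Fintype α] [DecidableEq α]

theorem JJ_nonneg {γ : Finset α → ℝ} (hγ : ∀ S, 0 ≤ γ S) {s : ℝ} (hs : 0 ≤ s)
    (V Y : Finset α) : 0 ≤ JJ γ s V Y := by
  sorry

theorem JJ_mon {γ : Finset α → ℝ} (hγ : ∀ S, 0 ≤ γ S) {s : ℝ} (hs : 0 ≤ s) (hs1 : s ≤ 1)
    {V U : Finset α} (hVU : V ⊆ U) (Y : Finset α) : JJ γ s V Y ≤ JJ γ s U (Y \ U) := by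
  sorry

open Classical in
/-- `∑_{W ≠ ∅, W ∩ V = ∅} J_V(W) x^|W| = Λ_{s+x}(V) - Λ_s(V)` (see `sum_Tw_pow`). -/
theorem sum_JJ_pow (γ : Finset α → ℝ) (s x : ℝ) (V : Finset α) :
    ∑ W : Finset α with W.Nonempty ∧ Disjoint W V, JJ γ s V W * x ^ W.card
      = Lam γ (s + x) V - Lam γ s V := by
  sorry

theorem Lam_mono_set {γ : Finset α → ℝ} (hγ : ∀ S, 0 ≤ γ S) {s : ℝ} (hs : 0 ≤ s) (hs1 : s ≤ 1)
    {V U : Finset α} (hVU : V ⊆ U) : Lam γ s V ≤ Lam γ s U := by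
  sorry

theorem Lam_union_ge {γ : Finset α → ℝ} (hγ : ∀ S, 0 ≤ γ S) {s : ℝ} (hs : 0 ≤ s)
    (hs1 : s ≤ 1 / 2) {V W : Finset α} (hW : W.Nonempty) (hd : Disjoint W V) :
    Lam γ s V + JJ γ s V W / 2 ≤ Lam γ s (V ∪ W) := by
  sorry

theorem Lam_mul_le {γ : Finset α → ℝ} (hγ : ∀ S, 0 ≤ γ S) {t : ℕ}
    (ht : ∀ S, γ S ≠ 0 → S.card = t) {s c : ℝ} (hs : 0 ≤ s) (hc : 1 ≤ c) (V : Finset α) :
    Lam γ (c * s) V ≤ c ^ t * Lam γ s V := by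
  sorry

open Classical in
/-- the total cost of all units with `τ ≤ J` -/
theorem sum_unit_le {γ : Finset α → ℝ} (hγ : ∀ S, 0 ≤ γ S) {t : ℕ}
    (ht : ∀ S, γ S ≠ 0 → S.card = t) {s τ : ℝ} (hs : 0 ≤ s) (hτ : 0 < τ) {V : Finset α}
    (hV : Lam γ s V ≤ 1) :
    ∑ W : Finset α with (W.Nonempty ∧ Disjoint W V ∧ τ ≤ JJ γ s V W), s ^ W.card
      ≤ 2 ^ t / τ := by
  sorry

/-- few subsets of size at most `t` -/
theorem card_small_subsets (U : Finset α) (t : ℕ) :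
    ((U.powerset.filter (fun Y => Y.card ≤ t)).card : ℝ) ≤ ((U.card : ℝ) + 1) ^ t := by
  sorry

end Vale.Agent.H11.P34
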