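import Vale.Agent.H11.P34.A6

/-! P034 row A10: generated sets. -/

namespace Vale.Agent.H11.P34

open Finset Vale.Agent.H2.P034

variable {α : Type*} [Fintype α] [DecidableEq α]

theorem gen_cost {γ : Finset α → ℝ} (hγ : ∀ S, 0 ≤ γ S) {t : ℕ}
    (ht : ∀ S, γ S ≠ 0 → S.card = t) {s b : ℝ} (hs : 0 ≤ s) (hb : 0 < b) (k : ℕ) :
    ∑ P ∈ gen γ s b k, s ^ P.card ≤ (1 + 2 ^ t / b) ^ k := by
  sorry

/-- Grow `P ⊆ V` from `∅` by units `W ⊆ V \ P` with `b ≤ J_P(W)` until `θ ≤ LL a b P`; at most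
`|P| ≤ n` steps; if no unit is left use `LL_closed_loss`. (`Lam ≤ LL < θ ≤ 1` before the end.) -/
theorem gen_exists {γ : Finset α → ℝ} (hγ : ∀ S, 0 ≤ γ S) {t : ℕ}
    (ht : ∀ S, γ S ≠ 0 → S.card = t) {s : ℝ} (hs : 0 ≤ s) (hs1 : s ≤ 1)
    {a b θ : ℝ} (hb : 0 ≤ b) (hθ : θ ≤ 1) {V : Finset α} {n : ℕ} (hn : V.card ≤ n)
    (hV : θ + 3 ^ t * ((n : ℝ) + 1) ^ t * b ≤ LL γ s a b V) :
    ∃ P ∈ gen γ s b n, P ⊆ V ∧ θ ≤ LL γ s a b P := by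
  sorry

end Vale.Agent.H11.P34
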