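import Vale.Agent.H11.P34.Defs

/-! P034 row A11: numerical estimates. -/

namespace Vale.Agent.H11.P34

open Finset

theorem NN_ge (t i : ℕ) : t + 1 + i ≤ NN t i ∧ 2 ^ i ≤ NN t i ∧ (t + 1) ^ 2 ≤ NN t i := by
  sorry

/-- from `n^k / k! ≤ e^n`, `k! ≤ k^k ≤ 2^(k^2)` -/
theorem pow_le_two_pow {t n : ℕ} (hn : (t + 1) ^ 2 ≤ n) :
    ((n : ℝ) + 1) ^ (t + 1) ≤ 2 ^ (3 * n + 2) := by
  sorry

theorem Afun_le (t i : ℕ) : (Afun t (NN t i) : ℝ) ≤ 2 ^ (11 * NN t i) := by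
  sorry

theorem bb_pos (t i : ℕ) : 0 < bb t i := by
  sorry

theorem aa_pos (t i : ℕ) : 0 < aa t i := by
  sorry

theorem aa_le_one (t i : ℕ) : aa t i ≤ 1 := by
  sorry

theorem bb_le_aa (t i : ℕ) : bb t i ≤ aa t i := by
  sorry

theorem eps_le (t i : ℕ) :
    3 ^ t * ((NN t i : ℝ) + 1) ^ t * bb t i ≤ 1 / (16 * ((NN t i : ℝ) + 1)) := by
  sorry

theorem theta_step (t i : ℕ) :
    theta i + 2 * (3 ^ t * ((NN t (i + 1) : ℝ) + 1) ^ t * bb t (i + 1)) ≤ theta (i + 1) := by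
  sorry

theorem theta_bounds (i : ℕ) : 1 / 2 ≤ theta i ∧ theta i ≤ 1 := by
  sorry

/-- `E_i ≤ 2^(64 N_i)` -/
theorem E_le (t i : ℕ) :
    (2 * (2 ^ t / aa t i)) ^ (2 / aa t i + 1 : ℝ) ≤ (2 : ℝ) ^ (64 * NN t i) := by
  sorry

/-- cost of a step: here `R = 2^192`, `L = 2^(64 N_i)` -/
theorem step_cost (t i : ℕ) :
    (2 : ℝ) ^ (64 * NN t i) * ((2 * (2 ^ t / aa t i)) ^ (2 / aa t i + 1 : ℝ)
        / ((2 : ℝ) ^ 192) ^ NN t i)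
      + Real.exp (-(2 : ℝ) ^ (64 * NN t i)) * (1 + 2 ^ t / bb t (i + 1)) ^ NN t (i + 1)
      ≤ 1 / 2 ^ (t + 4 + i) := by
  sorry

theorem top_cost (t i n : ℕ) (hn : n ≤ NN t i) :
    (2 : ℝ) ^ (64 * NN t i) * ((2 * (2 ^ t / aa t i)) ^ (2 / aa t i + 1 : ℝ)
        / ((2 : ℝ) ^ 192) ^ NN t i)
      + Real.exp (-(2 : ℝ) ^ (64 * NN t i)) * 2 ^ n
      ≤ 1 / 2 ^ (t + 4) := by
  sorry

/-- bottom: `L = 32 (t+1)^4` -/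
theorem bottom_cost (t : ℕ) (ht : 1 ≤ t) {w : ℝ} (hw : w ≤ 1 / 2 ^ (16 * t)) :
    (32 * ((t : ℝ) + 1) ^ 4) * (4 * w)
      + Real.exp (-(32 * ((t : ℝ) + 1) ^ 4)) * (1 + 2 ^ t / bb t 0) ^ NN t 0
      ≤ 1 / 2 ^ (t + 3) := by
  sorry

end Vale.Agent.H11.P34
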