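import Vale.Agent.H11.P34.A9
import Vale.Agent.H11.P34.A10

/-! P034 row A12: bottom level, one step up, top step. -/

namespace Vale.Agent.H11.P34

open Finset Vale.Agent.H2.P034

variable {α : Type*} [Fintype α] [DecidableEq α]

/-- Bottom level. `exists_pi` for `4 γ` with environments `3 s`, `3 s + s`, then `rounding` with
`B = {P ∈ gen γ s b n : 1/4 ≤ LL a b P}`, `x = L π`, costs `q^|·| ≤ s^|·|`. -/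
theorem bottom {γ : Finset α → ℝ} (hγ : ∀ S, 0 ≤ γ S) {t : ℕ}
    (ht : ∀ S, γ S ≠ 0 → S.card = t) {s : ℝ} (hs : 0 < s) (hs2 : s ≤ 1 / 2)
    {a b : ℝ} (hb : 0 < b) (hw : 4 * Lam γ (4 * s) ∅ < 1) {n : ℕ}
    (he : 3 ^ t * ((n : ℝ) + 1) ^ t * b ≤ 1 / 4) {q : ℝ} (hq0 : 0 ≤ q) (hq : q ≤ s)
    {L : ℝ} (hL : 0 ≤ L) :
    ∃ G : Finset (Finset α), (∀ V : Finset α, V.card ≤ n → 1 / 2 ≤ LL γ s a b V →
        ∃ O ∈ G, O ⊆ V) ∧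
      ∑ O ∈ G, q ^ O.card ≤ L * (4 * Lam γ (4 * s) ∅)
        + Real.exp (-L) * (1 + 2 ^ t / b) ^ n := by
  sorry

/-- One step up: `V` is first replaced by a generated `P ⊆ V` (`gen_exists`); if some
`V' ⊆ P` with `|V'| ≤ m` has `θ' ≤ LL a' b' V'` use the previous cover, otherwise `level_cover`. -/
theorem step_up {γ : Finset α → ℝ} (hγ : ∀ S, 0 ≤ γ S) {t : ℕ}
    (ht : ∀ S, γ S ≠ 0 → S.card = t) {s R : ℝ} (hs : 0 < s) (hs2 : s ≤ 1 / 2) (hR : 2 ≤ R)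
    {a b a' b' θ θ' : ℝ} (hb : 0 < b) (h1 : b ≤ a) (h2 : a ≤ b') (h3 : b' ≤ a')
    (ha1 : a' ≤ 1) (hθ : θ ≤ 1) {q : ℝ} (hq : q = s / R ^ 2) {m n : ℕ}
    (he : θ' + 2 * (3 ^ t * ((n : ℝ) + 1) ^ t * b) ≤ θ) {κ : ℝ}
    (hprev : ∃ G : Finset (Finset α), (∀ V : Finset α, V.card ≤ m → θ' ≤ LL γ s a' b' V →
        ∃ O ∈ G, O ⊆ V) ∧ ∑ O ∈ G, q ^ O.card ≤ κ)
    {L : ℝ} (hL : 0 ≤ L) :
    ∃ G : Finset (Finset α), (∀ V : Finset α, V.card ≤ n → θ ≤ LL γ s a b V →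
        ∃ O ∈ G, O ⊆ V) ∧
      ∑ O ∈ G, q ^ O.card ≤ κ + (L * ((2 * (2 ^ t / a')) ^ (2 / a' + 1 : ℝ) / R ^ m)
        + Real.exp (-L) * (1 + 2 ^ t / b) ^ n) := by
  sorry

/-- Top step (`a = b = 0`). -/
theorem top_step {γ : Finset α → ℝ} (hγ : ∀ S, 0 ≤ γ S) {t : ℕ}
    (ht : ∀ S, γ S ≠ 0 → S.card = t) {s R : ℝ} (hs : 0 < s) (hs2 : s ≤ 1 / 2) (hR : 2 ≤ R)
    {a' b' θ' : ℝ} (h2 : 0 ≤ b') (h3 : b' ≤ a') (ha' : 0 < a')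
    (ha1 : a' ≤ 1) (hθ : θ' ≤ 1) {q : ℝ} (hq : q = s / R ^ 2) {m : ℕ} {κ : ℝ}
    (hprev : ∃ G : Finset (Finset α), (∀ V : Finset α, V.card ≤ m → θ' ≤ LL γ s a' b' V →
        ∃ O ∈ G, O ⊆ V) ∧ ∑ O ∈ G, q ^ O.card ≤ κ)
    {L : ℝ} (hL : 0 ≤ L) :
    ∃ G : Finset (Finset α), (∀ V : Finset α, 1 ≤ Lam γ s V → ∃ O ∈ G, O ⊆ V) ∧
      ∑ O ∈ G, q ^ O.card ≤ κ + (L * ((2 * (2 ^ t / a')) ^ (2 / a' + 1 : ℝ) / R ^ m)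
        + Real.exp (-L) * 2 ^ (Fintype.card α)) := by
  sorry

end Vale.Agent.H11.P34
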