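import Vale.Agent.H11.P34.A11
import Vale.Agent.H11.P34.A12

/-! P034 row A13: the uniform theorem. -/

namespace Vale.Agent.H11.P34

open Finset Vale.Agent.H2.P034

variable {α : Type*} [Fintype α] [DecidableEq α]

theorem levels {γ : Finset α → ℝ} (hγ : ∀ S, 0 ≤ γ S) {t : ℕ} (ht1 : 1 ≤ t)
    (ht : ∀ S, γ S ≠ 0 → S.card = t) {s : ℝ} (hs : 0 < s) (hs2 : s ≤ 1 / 2)
    (hw : Lam γ (4 * s) ∅ ≤ 1 / 2 ^ (16 * t)) {q : ℝ} (hq : q = s / ((2 : ℝ) ^ 192) ^ 2)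
    (i : ℕ) :
    ∃ G : Finset (Finset α), (∀ V : Finset α, V.card ≤ NN t i →
        theta i ≤ LL γ s (aa t i) (bb t i) V → ∃ O ∈ G, O ⊆ V) ∧
      ∑ O ∈ G, q ^ O.card ≤ 1 / 2 ^ (t + 3) + (1 / 2 ^ (t + 3)) * (1 - 1 / 2 ^ i) := by
  sorry

theorem uniform {γ : Finset α → ℝ} (hγ : ∀ S, 0 ≤ γ S) {t : ℕ} (ht1 : 1 ≤ t)
    (ht : ∀ S, γ S ≠ 0 → S.card = t) {s : ℝ} (hs : 0 < s) (hs2 : s ≤ 1 / 2)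
    (hw : Lam γ (4 * s) ∅ ≤ 1 / 2 ^ (16 * t)) {q : ℝ} (hq : q = s / ((2 : ℝ) ^ 192) ^ 2) :
    ∃ G : Finset (Finset α), (∀ V : Finset α, 1 ≤ Lam γ s V → ∃ O ∈ G, O ⊆ V) ∧
      ∑ O ∈ G, q ^ O.card ≤ 1 / 2 ^ (t + 1) := by
  sorry

end Vale.Agent.H11.P34
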