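import Vale.Agent.H11.P34.A1

/-! P034 row A2: closures. -/

namespace Vale.Agent.H11.P34

open Finset Vale.Agent.H2.P034

variable {α : Type*} [Fintype α] [DecidableEq α]

theorem isCl_self (γ : Finset α → ℝ) (s τ : ℝ) (V Z : Finset α) : IsCl γ s τ V Z Z := by
  sorry

theorem cl_subset (γ : Finset α → ℝ) (s τ : ℝ) (V Z : Finset α) : cl γ s τ V Z ⊆ Z := by
  sorry

theorem cl_subset_of_isCl {γ : Finset α → ℝ} {s τ : ℝ} {V Z P : Finset α}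
    (h : IsCl γ s τ V Z P) : cl γ s τ V Z ⊆ P := by
  sorry

theorem isCl_cl {γ : Finset α → ℝ} (hγ : ∀ S, 0 ≤ γ S) {s : ℝ} (hs : 0 ≤ s) (hs1 : s ≤ 1)
    {τ : ℝ} {V Z : Finset α} (hd : Disjoint Z V) : IsCl γ s τ V Z (cl γ s τ V Z) := by
  sorry

/-- (c1) -/
theorem unit_subset_cl {γ : Finset α → ℝ} (hγ : ∀ S, 0 ≤ γ S) {s : ℝ} (hs : 0 ≤ s)
    (hs1 : s ≤ 1) {τ : ℝ} {V Z Y : Finset α} (hd : Disjoint Z V) (hY : Y ⊆ Z)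
    (h : τ ≤ JJ γ s V Y) : Y ⊆ cl γ s τ V Z := by
  sorry

/-- (c2) -/
theorem cl_mono_ctx {γ : Finset α → ℝ} (hγ : ∀ S, 0 ≤ γ S) {s : ℝ} (hs : 0 ≤ s)
    (hs1 : s ≤ 1) {τ : ℝ} {V U Z : Finset α} (hVU : V ⊆ U) (hd : Disjoint Z U) :
    cl γ s τ V Z ⊆ cl γ s τ U Z := by
  sorry

/-- (c3) -/
theorem cl_anti {γ : Finset α → ℝ} {s τ τ' : ℝ} (h : τ ≤ τ') (V Z : Finset α) :
    cl γ s τ' V Z ⊆ cl γ s τ V Z := by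
  sorry

/-- (c4) -/
theorem cl_sdiff {γ : Finset α → ℝ} (hγ : ∀ S, 0 ≤ γ S) {s : ℝ} (hs : 0 ≤ s) (hs1 : s ≤ 1)
    {τ : ℝ} {V Z Y : Finset α} (hd : Disjoint Z V) (hY : Y ⊆ cl γ s τ V Z) :
    cl γ s τ (V ∪ Y) (Z \ Y) = cl γ s τ V Z \ Y := by
  sorry

/-- a set `Y` whose complement in `Z` is clean in the context `V ∪ Y` is closed -/
theorem isCl_of_clean {γ : Finset α → ℝ} (hγ : ∀ S, 0 ≤ γ S) {s : ℝ} (hs : 0 ≤ s)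
    (hs1 : s ≤ 1) {τ : ℝ} {V Z Y : Finset α} (hd : Disjoint Z V) (hY : Y ⊆ Z)
    (h : cl γ s τ (V ∪ Y) (Z \ Y) = ∅) : IsCl γ s τ V Z Y := by
  sorry

theorem cl_eq_empty_iff {γ : Finset α → ℝ} (hγ : ∀ S, 0 ≤ γ S) {s : ℝ} (hs : 0 ≤ s)
    (hs1 : s ≤ 1) {τ : ℝ} {V Z : Finset α} (hd : Disjoint Z V) :
    cl γ s τ V Z = ∅ ↔ ∀ W : Finset α, W.Nonempty → W ⊆ Z → JJ γ s V W < τ := by
  sorry

theorem cl_zero {γ : Finset α → ℝ} (hγ : ∀ S, 0 ≤ γ S) {s : ℝ} (hs : 0 ≤ s) (V Z : Finset α) :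
    cl γ s 0 V Z = Z := by
  sorry

end Vale.Agent.H11.P34
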