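import Vale.Agent.H11.P34.A2

/-! P034 row A3: the key recursion. -/

namespace Vale.Agent.H11.P34

open Finset Vale.Agent.H2.P034

variable {α : Type*} [Fintype α] [DecidableEq α]

open Classical in
/-- KEY RECURSION. Proof: a pair `(Y, Z')` in the left-hand side (with `Y = ∅` for the first
term) is sent to `Z = Y ∪ Z'`. For given `Z` one has
`cl a V Z ⊆ Y ⊆ cl b V Z`, the weight is `2 ^ (|Z| - |cl b V Z|)` (by `cl_sdiff`), so the sum over
`Y` is at most `2 ^ (|Z| - |cl a V Z|) ≤ 2 ^ (|Z| - |cl b' V Z|)`, and `cl a' V Z = ∅`. -/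
theorem cc_rec {γ : Finset α → ℝ} (hγ : ∀ S, 0 ≤ γ S) {s : ℝ} (hs : 0 ≤ s) (hs1 : s ≤ 1)
    {a b a' b' : ℝ} (h1 : b ≤ a) (h2 : a ≤ b') (h3 : b' ≤ a') (V S : Finset α) :
    cc γ s a b V S +
      ∑ Y ∈ (S \ V).powerset with Type1 γ s b a' V Y, cc γ s a b (V ∪ Y) S
      ≤ cc γ s a' b' V S := by
  sorry

end Vale.Agent.H11.P34
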