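import Vale.Agent.H11.P34.A2

/-! P034 row A4: simple facts on `cc` and `LL`. -/

namespace Vale.Agent.H11.P34

open Finset Vale.Agent.H2.P034

variable {α : Type*} [Fintype α] [DecidableEq α]

theorem cc_nonneg (γ : Finset α → ℝ) (s a b : ℝ) (V S : Finset α) : 0 ≤ cc γ s a b V S := by
  sorry

theorem one_le_cc (γ : Finset α → ℝ) (s a b : ℝ) (V S : Finset α) : 1 ≤ cc γ s a b V S := by
  sorry

theorem cc_le (γ : Finset α → ℝ) (s a b : ℝ) (V S : Finset α) :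
    cc γ s a b V S ≤ 3 ^ (S \ V).card := by
  sorry

theorem cc_zero {γ : Finset α → ℝ} (hγ : ∀ S, 0 ≤ γ S) {s : ℝ} (hs : 0 ≤ s) (V S : Finset α) :
    cc γ s 0 0 V S = 1 := by
  sorry

/-- `c(S;·)` is decreasing along contexts `V ⊆ U` with `S ∩ U ⊆ V` -/
theorem cc_mono {γ : Finset α → ℝ} (hγ : ∀ S, 0 ≤ γ S) {s : ℝ} (hs : 0 ≤ s) (hs1 : s ≤ 1)
    {a b : ℝ} {V U S : Finset α} (hVU : V ⊆ U) (h : S ∩ U ⊆ V) :
    cc γ s a b U S ≤ cc γ s a b V S := by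
  sorry

theorem LL_zero {γ : Finset α → ℝ} (hγ : ∀ S, 0 ≤ γ S) {s : ℝ} (hs : 0 ≤ s) (V : Finset α) :
    LL γ s 0 0 V = Lam γ s V := by
  sorry

theorem Lam_le_LL {γ : Finset α → ℝ} (hγ : ∀ S, 0 ≤ γ S) {s : ℝ} (hs : 0 ≤ s) (a b : ℝ)
    (V : Finset α) : Lam γ s V ≤ LL γ s a b V := by
  sorry

theorem LL_le_Lam {γ : Finset α → ℝ} (hγ : ∀ S, 0 ≤ γ S) {s : ℝ} (hs : 0 ≤ s) (a b : ℝ)
    (V : Finset α) : LL γ s a b V ≤ Lam γ (3 * s) V := by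
  sorry

end Vale.Agent.H11.P34
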