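import Vale.Agent.H11.P34.A3
import Vale.Agent.H11.P34.A4

/-! P034 row A5: cost of the type 1 transitions. -/

namespace Vale.Agent.H11.P34

open Finset Vale.Agent.H2.P034

variable {α : Type*} [Fintype α] [DecidableEq α]

theorem TJ_nonneg {γ : Finset α → ℝ} (hγ : ∀ S, 0 ≤ γ S) {s : ℝ} (hs : 0 ≤ s) (a b a' : ℝ)
    (V Y : Finset α) : 0 ≤ TJ γ s a b a' V Y := by
  sorry

/-- cost (from `cc_rec`; for a type 1 `Y ⊆ S` one has `s^|S \ (V ∪ Y)| s^|Y| = s^|S \ V|`) -/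
theorem TJ_cost {γ : Finset α → ℝ} (hγ : ∀ S, 0 ≤ γ S) {s : ℝ} (hs : 0 ≤ s) (hs1 : s ≤ 1)
    {a b a' b' : ℝ} (h1 : b ≤ a) (h2 : a ≤ b') (h3 : b' ≤ a') (V : Finset α) :
    ∑ Y : Finset α, TJ γ s a b a' V Y * s ^ Y.card ≤ LL γ s a' b' V - LL γ s a b V := by
  sorry

end Vale.Agent.H11.P34
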