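import Vale.Agent.H11.P34.A4

/-! P034 row A6: coverage by the type 1 transitions. -/

namespace Vale.Agent.H11.P34

open Finset Vale.Agent.H2.P034

variable {α : Type*} [Fintype α] [DecidableEq α]

/-- coverage: only `Y = (S ∩ U) \ V` is used for each `S`; those with `J_V(Y) < b` are charged to
`eps`, by `card_small_subsets` and `cc_le` -/
theorem TJ_cover {γ : Finset α → ℝ} (hγ : ∀ S, 0 ≤ γ S) {t : ℕ}
    (ht : ∀ S, γ S ≠ 0 → S.card = t) {s : ℝ} (hs : 0 ≤ s) (hs1 : s ≤ 1)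
    {a b a' : ℝ} (hb : 0 ≤ b) {V U : Finset α} (hVU : V ⊆ U)
    (hclean : ∀ W : Finset α, W.Nonempty → W ⊆ U \ V → JJ γ s V W < a') :
    LL γ s a b U - LL γ s a b V - 3 ^ t * ((U.card : ℝ) + 1) ^ t * b
      ≤ ∑ Y ∈ U.powerset, TJ γ s a b a' V Y := by
  sorry

/-- the loss when passing to a `b`-closed subset -/
theorem LL_closed_loss {γ : Finset α → ℝ} (hγ : ∀ S, 0 ≤ γ S) {t : ℕ}
    (ht : ∀ S, γ S ≠ 0 → S.card = t) {s : ℝ} (hs : 0 ≤ s) (hs1 : s ≤ 1)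
    {a b : ℝ} (hb : 0 ≤ b) {P U : Finset α} (hPU : P ⊆ U)
    (hclean : ∀ W : Finset α, W.Nonempty → W ⊆ U \ P → JJ γ s P W < b) :
    LL γ s a b U ≤ LL γ s a b P + 3 ^ t * ((U.card : ℝ) + 1) ^ t * b := by
  sorry

end Vale.Agent.H11.P34
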