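import Vale.Agent.H11.P34.A5
import Vale.Agent.H11.P34.A6
import Vale.Agent.H11.P34.A7

/-! P034 row A8: the fractional cover of one level. -/

namespace Vale.Agent.H11.P34

open Finset Vale.Agent.H2.P034

variable {α : Type*} [Fintype α] [DecidableEq α]

/-- Apply `kernel_exists` with `Stop V := θ' ≤ LL a' b' V`, `x = s / R`,
`T V Y = TJ a b a' V Y / (θ' - LL a b V)` (if `V` is unstopped) plus `1` if `Y` is nonempty,
disjoint from `V` and `a' ≤ JJ V Y`, and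
`h V = 1` if stopped, else `(2β)^(2 (1 - Λ_s V) / a' + 1)` (real power), `β = 2^t / a' ≥ 1`.
Type 1: `x^|Y| ≤ s^|Y| / R ≤ s^|Y| / 2`, `TJ_cost`. Type 2: `sum_unit_le` and `Lam_union_ge`
(the exponent drops by at least `1`). Coverage: if some nonempty `W ⊆ U \ V` has `a' ≤ J_V(W)`
the type 2 weight is `≥ 1`, otherwise `TJ_cover`. -/
theorem level_pi {γ : Finset α → ℝ} (hγ : ∀ S, 0 ≤ γ S) {t : ℕ}
    (ht : ∀ S, γ S ≠ 0 → S.card = t) {s R : ℝ} (hs : 0 < s) (hs2 : s ≤ 1 / 2) (hR : 2 ≤ R)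
    {a b a' b' θ' : ℝ} (hb : 0 ≤ b) (h1 : b ≤ a) (h2 : a ≤ b') (h3 : b' ≤ a') (ha' : 0 < a')
    (ha1 : a' ≤ 1) (hθ : θ' ≤ 1) :
    ∃ π : Finset α → ℝ, (∀ O, 0 ≤ π O) ∧ (∀ O, π O ≠ 0 → θ' ≤ LL γ s a' b' O) ∧
      (∀ U, θ' + 3 ^ t * ((U.card : ℝ) + 1) ^ t * b ≤ LL γ s a b U →
        1 ≤ ∑ O ∈ U.powerset, π O) ∧
      ∑ O, π O * (s / R) ^ O.card ≤ (2 * (2 ^ t / a')) ^ (2 / a' + 1 : ℝ) := by
  sorry

end Vale.Agent.H11.P34
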