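import Vale.Agent.H11.P34.A8

/-! P034 row A9: the integral cover of one level. -/

namespace Vale.Agent.H11.P34

open Finset Vale.Agent.H2.P034

variable {α : Type*} [Fintype α] [DecidableEq α]

/-- From `level_pi` and `rounding` (H2/P034/Core) with `A = {O : π O ≠ 0, m ≤ |O|}`,
`x = L π`, `c = a = q^|·|`. Note `q^|O| = (s/R)^|O| / R^|O| ≤ (s/R)^|O| / R^m`. -/
theorem level_cover {γ : Finset α → ℝ} (hγ : ∀ S, 0 ≤ γ S) {t : ℕ}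
    (ht : ∀ S, γ S ≠ 0 → S.card = t) {s R : ℝ} (hs : 0 < s) (hs2 : s ≤ 1 / 2) (hR : 2 ≤ R)
    {a b a' b' θ' : ℝ} (hb : 0 ≤ b) (h1 : b ≤ a) (h2 : a ≤ b') (h3 : b' ≤ a') (ha' : 0 < a')
    (ha1 : a' ≤ 1) (hθ : θ' ≤ 1) {q : ℝ} (hq : q = s / R ^ 2) (m : ℕ)
    (B : Finset (Finset α))
    (hB : ∀ U ∈ B, θ' + 3 ^ t * ((U.card : ℝ) + 1) ^ t * b ≤ LL γ s a b U ∧
      ∀ V, V ⊆ U → θ' ≤ LL γ s a' b' V → m ≤ V.card) {L : ℝ} (hL : 0 ≤ L) :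
    ∃ G : Finset (Finset α), (∀ U ∈ B, ∃ O ∈ G, O ⊆ U) ∧
      ∑ O ∈ G, q ^ O.card ≤ L * ((2 * (2 ^ t / a')) ^ (2 / a' + 1 : ℝ) / R ^ m)
        + Real.exp (-L) * ∑ U ∈ B, q ^ U.card := by
  sorry

end Vale.Agent.H11.P34
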