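import Vale.Agent.H2.P034.Core

/-! P034, removal of the iterated logarithm: definitions. -/

namespace Vale.Agent.H11.P34

open Finset Vale.Agent.H2.P034

variable {α : Type*} [Fintype α] [DecidableEq α]

/-- `J_V(Y)`. -/
noncomputable def JJ (γ : Finset α → ℝ) (s : ℝ) (V Y : Finset α) : ℝ :=
  ∑ S : Finset α, (if Y ⊆ S then γ S * s ^ (S \ (V ∪ Y)).card else 0)

/-- `P` is closed in `Z`, in the context `V`, at threshold `τ`. -/
def IsCl (γ : Finset α → ℝ) (s τ : ℝ) (V Z P : Finset α) : Prop :=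
  P ⊆ Z ∧ ∀ W : Finset α, W.Nonempty → W ⊆ Z \ P → JJ γ s (V ∪ P) W < τ

open Classical in
/-- the closure of the context `V` in `Z` at threshold `τ` -/
noncomputable def cl (γ : Finset α → ℝ) (s τ : ℝ) (V Z : Finset α) : Finset α :=
  Z.filter (fun x => ∀ P : Finset α, IsCl γ s τ V Z P → x ∈ P)

open Classical in
/-- the weights `c(S;V)` -/
noncomputable def cc (γ : Finset α → ℝ) (s a b : ℝ) (V S : Finset α) : ℝ :=
  ∑ Z ∈ (S \ V).powerset,
    if cl γ s a V Z = ∅ then (2 : ℝ) ^ (Z.card - (cl γ s b V Z).card) else 0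

/-- units of scale `[b, a')` -/
def Type1 (γ : Finset α → ℝ) (s b a' : ℝ) (V Y : Finset α) : Prop :=
  Y.Nonempty ∧ Disjoint Y V ∧ b ≤ JJ γ s V Y ∧
    ∀ W : Finset α, W.Nonempty → W ⊆ Y → JJ γ s V W < a'

/-- the level function `Λ^{[j]}` -/
noncomputable def LL (γ : Finset α → ℝ) (s a b : ℝ) (V : Finset α) : ℝ :=
  ∑ S : Finset α, γ S * s ^ (S \ V).card * cc γ s a b V S

open Classical in
/-- unnormalised type 1 transition weight -/
noncomputable def TJ (γ : Finset α → ℝ) (s a b a' : ℝ) (V Y : Finset α) : ℝ :=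
  if Type1 γ s b a' V Y then
    ∑ S : Finset α, (if Y ⊆ S then
      γ S * s ^ (S \ (V ∪ Y)).card * cc γ s a b (V ∪ Y) S else 0) else 0

open Classical in
/-- sets generated in at most `k` steps by units with `b ≤ J` -/
noncomputable def gen (γ : Finset α → ℝ) (s b : ℝ) : ℕ → Finset (Finset α)
  | 0 => {∅}
  | k + 1 => univ.filter (fun P : Finset α => P ∈ gen γ s b k ∨
      ∃ Q ∈ gen γ s b k, ∃ W : Finset α,
        W.Nonempty ∧ Disjoint W Q ∧ Lam γ s Q ≤ 1 ∧ b ≤ JJ γ s Q W ∧ P = Q ∪ W)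

/-- `16 · 3^t (n+1)^(t+1)` -/
def Afun (t n : ℕ) : ℕ := 16 * 3 ^ t * (n + 1) ^ (t + 1)

/-- the sizes `N_i` (counted from the bottom) -/
def NN (t : ℕ) : ℕ → ℕ
  | 0 => (t + 1) ^ 2
  | i + 1 => (Afun t (NN t i)) ^ 2

/-- the thresholds `b_i` -/
noncomputable def bb (t i : ℕ) : ℝ := 1 / (Afun t (NN t i) : ℝ)

/-- the thresholds `a_i` -/
noncomputable def aa (t : ℕ) : ℕ → ℝ
  | 0 => 1
  | i + 1 => bb t i

/-- the heaviness thresholds -/
noncomputable def theta (i : ℕ) : ℝ := 1 / 2 + 1 / 4 * (1 - 1 / 2 ^ i)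

end Vale.Agent.H11.P34
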